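import Vale.Agent.P208.Doub

namespace Vale.Agent.Results.P208.Main
open Vale.Agent.P208

theorem result : ∃ X : Set (lp (fun _ : ℕ => ℝ) 2), IsDoubling X ∧
    ∀ (k : ℕ) (D a : ℝ), 0 < a → ¬ ∃ f : X → EuclideanSpace ℝ (Fin k),
      ∀ x y : X, a * dist x y ≤ dist (f x) (f y) ∧ dist (f x) (f y) ≤ D * a * dist x y := by
  choose p hN hp using fun n : ℕ => exists_good (n + 1) (by omega)
  refine ⟨Set.range (allPt p), doubling_all p hp, ?_⟩
  rintro k D a ha ⟨f, hf⟩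
  obtain ⟨N0, hN0⟩ := exists_pack (EuclideanSpace ℝ (Fin k)) (4 * max D 0 + 1)
  obtain ⟨n, hn1, hn2⟩ : ∃ n : ℕ, N0 ≤ n ∧ max D 0 ≤ n :=
    ⟨max N0 ⌈max D 0⌉₊, le_max_left _ _, (Nat.le_ceil _).trans (by exact_mod_cast le_max_right _ _)⟩
  refine no_emb (p n) (hp n) (Rad p n) (max D 0) (le_max_right _ _)
    (by rw [hN]; push_cast; linarith) (hN0 _ (by rw [hN]; omega))
    (fun m ω x y => a⁻¹ • f ⟨allPt p (n, m, ω, x, y), _, rfl⟩) ?_ ?_
  · intro m ω x y m' ω' x' y'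
    have := (hf ⟨allPt p (n, m, ω, x, y), _, rfl⟩ ⟨allPt p (n, m', ω', x', y'), _, rfl⟩).1
    rw [Subtype.dist_eq, dist_eq_norm, dist_eq_norm] at this
    rw [← smul_sub, norm_smul, Real.norm_eq_abs, abs_of_pos (inv_pos.2 ha), ← div_eq_inv_mul,
      le_div_iff₀ ha, mul_comm]
    exact this
  · intro m ω x y m' ω' x' y'
    have := (hf ⟨allPt p (n, m, ω, x, y), _, rfl⟩ ⟨allPt p (n, m', ω', x', y'), _, rfl⟩).2
    rw [Subtype.dist_eq, dist_eq_norm, dist_eq_norm] at this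
    rw [← smul_sub, norm_smul, Real.norm_eq_abs, abs_of_pos (inv_pos.2 ha), ← div_eq_inv_mul,
      div_le_iff₀ ha]
    refine this.trans ?_
    rw [mul_right_comm]
    exact mul_le_mul_of_nonneg_right
      (mul_le_mul_of_nonneg_right (le_max_left _ _) (norm_nonneg _)) ha.le

end Vale.Agent.Results.P208.Main
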